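import Vale.Agent.P062.C10a
import Vale.Agent.P062.C10b
import Vale.Agent.P062.C10c
import Vale.Agent.P062.C10d
import Vale.Agent.P062.C10e

/-! Chaining the checked lists. -/

namespace Vale.Agent.P062

theorem valid_10 : Valid 315216049571155833698232320801148910440637914163723573343586347233965774171977684891314130039079325126453023922454528 69335190735744412522000323495342362070504349666576435785304466386658827108501136417581971873265105932975031562616816429221560801036148968818981985350141948848735229424631560209161555130001697157647083557354365489622976299023 34 := by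
  have h0 := check_sound _ bases_ok _ _ c10_0
  rw [List.map_append, List.forall_mem_append] at h0
  obtain ⟨h0_1, h0⟩ := h0
  rw [List.map_append, List.forall_mem_append] at h0
  obtain ⟨h0_2, h0⟩ := h0
  rw [List.map_append, List.forall_mem_append] at h0
  obtain ⟨h0_3, h0⟩ := h0
  have h0_4 := h0
  have h1 := check_sound _ (List.forall_mem_append.mpr ⟨bases_ok, h0_1⟩) _ _ c10_1
  rw [List.map_append, List.forall_mem_append] at h1
  obtain ⟨h1_2, h1⟩ := h1
  rw [List.map_append, List.forall_mem_append] at h1
  obtain ⟨h1_3, h1⟩ := h1
  have h1_4 := h1
  have h2 := check_sound _ (List.forall_mem_append.mpr ⟨(List.forall_mem_append.mpr ⟨bases_ok, h0_2⟩), h1_2⟩) _ _ c10_2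
  rw [List.map_append, List.forall_mem_append] at h2
  obtain ⟨h2_3, h2⟩ := h2
  have h2_4 := h2
  have h3 := check_sound _ (List.forall_mem_append.mpr ⟨(List.forall_mem_append.mpr ⟨(List.forall_mem_append.mpr ⟨bases_ok, h0_3⟩), h1_3⟩), h2_3⟩) _ _ c10_3
  have h3_4 := h3
  have h4 := check_sound _ (List.forall_mem_append.mpr ⟨(List.forall_mem_append.mpr ⟨(List.forall_mem_append.mpr ⟨(List.forall_mem_append.mpr ⟨bases_ok, h0_4⟩), h1_4⟩), h2_4⟩), h3_4⟩) _ _ c10_4
  exact h4 ⟨315216049571155833698232320801148910440637914163723573343586347233965774171977684891314130039079325126453023922454528, 69335190735744412522000323495342362070504349666576435785304466386658827108501136417581971873265105932975031562616816429221560801036148968818981985350141948848735229424631560209161555130001697157647083557354365489622976299023, 34⟩ List.mem_cons_self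

end Vale.Agent.P062
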