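import Vale.Agent.P062.C11a
import Vale.Agent.P062.C11b

/-! Chaining the checked lists. -/

namespace Vale.Agent.P062

theorem valid_11 : Valid 34175792574734561318320347298712833833643272357706444319152665725155515612490248800367393390985216 2473304016516214337710488390567700652991805261997300950513771540001012853080134778206872846891207484451278786928373321815241873911994598406847535708612785663992204174393606399 22 := by
  have h0 := check_sound _ bases_ok _ _ c11_0
  have h0_1 := h0
  have h1 := check_sound _ (List.forall_mem_append.mpr ⟨bases_ok, h0_1⟩) _ _ c11_1
  exact h1 ⟨34175792574734561318320347298712833833643272357706444319152665725155515612490248800367393390985216, 2473304016516214337710488390567700652991805261997300950513771540001012853080134778206872846891207484451278786928373321815241873911994598406847535708612785663992204174393606399, 22⟩ List.mem_cons_self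

end Vale.Agent.P062
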