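import Vale.Agent.P062.Game

/-!
Cards (a core owned by Maker and a region free of Breaker cells), encoded as bit masks on a strip of
width 32, and a verified interpreter for lists of cards.
-/

namespace Vale.Agent.P062

open Classical

/-- the cell with index `j` -/
def dec (j : ℤ) : Cell := (j % 32, j / 32)

lemma dec_inj {i j : ℤ} (h : dec i = dec j) : i = j := by
  simp only [dec, Prod.mk.injEq] at h
  omega

/-- the region avoids column zero -/
def NoWrap (T : ℕ) (t : ℤ) : Prop := ∀ i, T.testBit i = true → ((i : ℤ) + t) % 32 ≠ 0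

/-- Maker owns the core -/
def Has (A : ℕ) (t : ℤ) (M : Finset Cell) : Prop := ∀ i, A.testBit i = true → dec (i + t) ∈ M

/-- Breaker avoids the region -/
def Avoids (T : ℕ) (t : ℤ) (B : Finset Cell) : Prop := ∀ i, T.testBit i = true → dec (i + t) ∉ B

/-- a valid card -/
def Valid (A T h : ℕ) : Prop :=
  ∀ t, NoWrap T t → ∀ M B, Disjoint M B → Has A t M → Avoids T t B → Wn h M B

/-- a family of cards, with Breaker to move outside `w` -/
def Inv (a u w h : ℕ) : Prop :=
  ∀ t, NoWrap u t → ∀ M B y, Disjoint M B → y ∉ M → Has a t M → Avoids u t B →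
    (∀ i, w.testBit i = true → dec (i + t) ≠ y) → Wn h M (insert y B)

lemma testBit_shl (A k i : ℕ) (h : A.testBit i = true) : (Nat.shiftLeft A k).testBit (i + k) = true := by
  show (A <<< k).testBit (i + k) = true
  rw [Nat.testBit_shiftLeft]; simpa using h

lemma Valid.shift {A T h : ℕ} (hv : Valid A T h) (k : ℕ) :
    Valid (Nat.shiftLeft A k) (Nat.shiftLeft T k) h := by
  intro t hn M B hd hA hT
  have e : ∀ i : ℕ, (i : ℤ) + (k + t) = ((i + k : ℕ) : ℤ) + t := fun i => by push_cast; ring
  refine hv (k + t) (fun i hi => ?_) M B hd (fun i hi => ?_) (fun i hi => ?_)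
  · rw [e]; exact hn _ (testBit_shl _ _ _ hi)
  · rw [e]; exact hA _ (testBit_shl _ _ _ hi)
  · rw [e]; exact hT _ (testBit_shl _ _ _ hi)

lemma Valid.start {A T h : ℕ} (hv : Valid A T h) : Inv A T T h := by
  intro t hn M B y hd hy hA hT hw
  refine hv t hn M _ (by simpa [Finset.disjoint_insert_right, hy] using hd) hA (fun i hi => ?_)
  rw [Finset.mem_insert, not_or]
  exact ⟨hw i hi, hT i hi⟩

lemma lor_left {a b i : ℕ} (h : a.testBit i = true) : (Nat.lor a b).testBit i = true := by
  show (a ||| b).testBit i = true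
  simp [Nat.testBit_or, h]

lemma lor_right {a b i : ℕ} (h : b.testBit i = true) : (Nat.lor a b).testBit i = true := by
  show (a ||| b).testBit i = true
  simp [Nat.testBit_or, h]

/-- maximum of two naturals -/
def mx (a b : ℕ) : ℕ := cond (Nat.ble a b) b a

lemma le_mx_left (a b : ℕ) : a ≤ mx a b := by
  unfold mx
  cases h : Nat.ble a b
  · exact le_rfl
  · exact Nat.le_of_ble_eq_true h

lemma le_mx_right (a b : ℕ) : b ≤ mx a b := by
  unfold mx
  cases h : Nat.ble a b
  · show b ≤ a
    by_contra hc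
    have := Nat.ble_eq_true_of_le (le_of_lt (not_le.mp hc))
    rw [h] at this; exact absurd this (by simp)
  · exact le_rfl

lemma Inv.join {a u w h A T h' : ℕ} (hi : Inv a u w h) (hv : Valid A T h') :
    Inv (Nat.lor a A) (Nat.lor u T) (Nat.land w T) (mx h h') := by
  intro t hn M B y hd hy hA hT hw
  by_cases hc : ∀ i, w.testBit i = true → dec (i + t) ≠ y
  · exact Wn_mono (le_mx_left _ _) (hi t (fun i hi => hn i (lor_left hi)) M B y hd hy
      (fun i hi => hA i (lor_left hi)) (fun i hi => hT i (lor_left hi)) hc)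
  · push Not at hc
    obtain ⟨i, hi1, hi2⟩ := hc
    refine Wn_mono (le_mx_right _ _) (hv.start t (fun i hi => hn i (lor_right hi)) M B y hd hy
      (fun i hi => hA i (lor_right hi)) (fun i hi => hT i (lor_right hi)) (fun j hj hjy => ?_))
    have : (j : ℤ) + t = i + t := dec_inj (hjy.trans hi2.symm)
    have hji : j = i := by omega
    subst hji
    refine hw j ?_ hi2
    show (w &&& T).testBit j = true
    simp [Nat.testBit_and, hi1, hj]

lemma Inv.close {a u w h : ℕ} (hi : Inv a u w h) (x : ℕ) :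
    Valid (Nat.xor (Nat.lor a w) (Nat.land (Nat.lor a w) (Nat.shiftLeft 1 x)))
      (Nat.lor u (Nat.shiftLeft 1 x)) (Nat.succ h) := by
  intro t hn M B hd hA hT
  have hx : (Nat.shiftLeft 1 x).testBit x = true := by
    have := testBit_shl 1 x 0 (by decide)
    rwa [zero_add] at this
  have hxB : dec (x + t) ∉ B := hT x (lor_right hx)
  obtain ⟨z, hzM, hzB, hz⟩ : ∃ z, z ∉ M ∧ z ∉ B ∧ dec (x + t) ∈ insert z M := by
    by_cases hm : dec (x + t) ∈ M
    · obtain ⟨z, h1, h2⟩ := exists_fresh M B
      exact ⟨z, h1, h2, Finset.mem_insert_of_mem hm⟩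
    · exact ⟨_, hm, hxB, Finset.mem_insert_self _ _⟩
  have hall : ∀ i, (Nat.lor a w).testBit i = true → dec (i + t) ∈ insert z M := by
    intro i hi'
    by_cases hix : i = x
    · subst hix; exact hz
    · refine Finset.mem_insert_of_mem (hA i ?_)
      show ((a ||| w) ^^^ ((a ||| w) &&& (1 <<< x))).testBit i = true
      have h1 : (a ||| w).testBit i = true := hi'
      rw [Nat.testBit_xor, Nat.testBit_and, h1, Nat.one_shiftLeft, Nat.testBit_two_pow_of_ne
        (fun h => hix h.symm)]
      rfl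
  refine ⟨z, hzM, hzB, fun y hy _ => ?_⟩
  refine hi t (fun i hi => hn i (lor_left hi)) _ B y
    (by simpa [Finset.disjoint_insert_left, hzB] using hd) hy
    (fun i hi => hall i (lor_left hi)) (fun i hi => hT i (lor_left hi)) (fun i hi h => ?_)
  exact hy (h ▸ hall i (lor_right hi))

lemma dec_add (j dx dy : ℤ) (h1 : 0 ≤ j % 32 + dx) (h2 : j % 32 + dx < 32) :
    dec (j + dx + 32 * dy) = dec j + (dx, dy) := by
  simp only [dec, Prod.mk_add_mk, Prod.mk.injEq]
  omega

lemma nowrap_step {j dx dy dx' dy' : ℤ} (h1 : 0 ≤ j % 32 + dx) (h2 : j % 32 + dx < 32)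
    (n1 : (j + dx + 32 * dy) % 32 ≠ 0) (n2 : (j + dx' + 32 * dy') % 32 ≠ 0)
    (hd : dx - 1 ≤ dx' ∧ dx' ≤ dx + 1) : 0 ≤ j % 32 + dx' ∧ j % 32 + dx' < 32 := by
  omega

lemma valid_base (P : ℕ) (i0 : ℕ) (a b : ℤ) (sw : Bool) (ha : a = 1 ∨ a = -1) (hb : b = 1 ∨ b = -1)
    (h : ∀ p ∈ snaky, ∃ i : ℕ, P.testBit i = true ∧
      (i : ℤ) = i0 + (signedPerm a b sw p).1 + 32 * (signedPerm a b sw p).2) : Valid P P 0 := by
  intro t hn M B _ hA _
  refine ⟨dec (i0 + t), a, b, sw, ha, hb, ?_⟩
  have h' : ∀ p ∈ snaky, (i0 + t + (signedPerm a b sw p).1 + 32 * (signedPerm a b sw p).2) % 32 ≠ 0 ∧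
      dec (i0 + t + (signedPerm a b sw p).1 + 32 * (signedPerm a b sw p).2) ∈ M := by
    intro p hp
    obtain ⟨i, h1, e⟩ := h p hp
    have e' : i0 + t + (signedPerm a b sw p).1 + 32 * (signedPerm a b sw p).2 = i + t := by
      rw [e]; ring
    rw [e']
    exact ⟨hn i h1, hA i h1⟩
  have hb : ∀ p ∈ snaky, 0 ≤ (i0 + t) % 32 + (signedPerm a b sw p).1 ∧
      (i0 + t) % 32 + (signedPerm a b sw p).1 < 32 := by
    simp only [snaky, List.forall_mem_cons, List.not_mem_nil, false_imp_iff, implies_true,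
      and_true] at h' ⊢
    obtain ⟨⟨n1, _⟩, ⟨n2, _⟩, ⟨n3, _⟩, ⟨n4, _⟩, ⟨n5, _⟩, ⟨n6, _⟩⟩ := h'
    have s : ∀ p q : Cell, (p.1 - 1 ≤ q.1 ∧ q.1 ≤ p.1 + 1) → (p.2 - 1 ≤ q.2 ∧ q.2 ≤ p.2 + 1) →
        (signedPerm a b sw p).1 - 1 ≤ (signedPerm a b sw q).1 ∧
          (signedPerm a b sw q).1 ≤ (signedPerm a b sw p).1 + 1 := by
      intro p q h1 h2
      rcases ha with rfl | rfl <;> cases sw <;> simp [signedPerm] <;> omega
    have b1 : 0 ≤ (i0 + t) % 32 + (signedPerm a b sw (0, 0)).1 ∧
        (i0 + t) % 32 + (signedPerm a b sw (0, 0)).1 < 32 := by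
      cases sw <;> simp [signedPerm] <;> omega
    have b2 := nowrap_step b1.1 b1.2 n1 n2 (s _ _ (by simp) (by simp))
    have b3 := nowrap_step b2.1 b2.2 n2 n3 (s _ _ (by simp) (by simp))
    have b4 := nowrap_step b3.1 b3.2 n3 n4 (s _ _ (by simp) (by simp))
    have b5 := nowrap_step b4.1 b4.2 n4 n5 (s _ _ (by simp) (by simp))
    have b6 := nowrap_step b5.1 b5.2 n5 n6 (s _ _ (by simp) (by simp))
    exact ⟨b1, b2, b3, b4, b5, b6⟩
  intro p hp
  have := (h' p hp).2
  rw [dec_add _ _ _ (hb p hp).1 (hb p hp).2] at this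
  exact this

/-- a card -/
structure Cd : Type where
  /-- core -/
  A : ℕ
  /-- region -/
  T : ℕ
  /-- height -/
  h : ℕ

/-- a table of cards -/
inductive Tr : Type
  | nil : Tr
  | node : Tr → Cd → Tr → Tr

/-- all cards of the table are valid -/
def Tr.Ok : Tr → Prop
  | .nil => True
  | .node l c r => l.Ok ∧ Valid c.A c.T c.h ∧ r.Ok

/-- lookup -/
noncomputable def Tr.get (t : Tr) : ℕ → Cd :=
  Tr.rec (motive := fun _ => ℕ → Cd) (fun _ => ⟨103079215119, 103079215119, 0⟩)
    (fun _ c _ ihl ihr n => cond (Nat.beq n 0) c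
      (cond (Nat.beq (Nat.mod n 2) 1) (ihl (Nat.div n 2)) (ihr (Nat.pred (Nat.div n 2))))) t

/-- insertion -/
noncomputable def Tr.set (t : Tr) (d : Cd) : ℕ → Tr :=
  Tr.rec (motive := fun _ => ℕ → Tr) (fun _ => Tr.node Tr.nil d Tr.nil)
    (fun l c r ihl ihr n => cond (Nat.beq n 0) (Tr.node l d r)
      (cond (Nat.beq (Nat.mod n 2) 1) (Tr.node (ihl (Nat.div n 2)) c r)
        (Tr.node l c (ihr (Nat.pred (Nat.div n 2)))))) t

lemma valid_b0 : Valid 103079215119 103079215119 0 :=
  valid_base _ 0 1 1 false (by simp) (by simp) (by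
    simp only [snaky, List.forall_mem_cons, List.not_mem_nil, false_imp_iff, implies_true, and_true]
    exact ⟨⟨0, by decide, by decide⟩, ⟨1, by decide, by decide⟩, ⟨2, by decide, by decide⟩,
      ⟨3, by decide, by decide⟩, ⟨35, by decide, by decide⟩, ⟨36, by decide, by decide⟩⟩)

lemma Tr.get_ok (t : Tr) (ht : t.Ok) : ∀ n, Valid (t.get n).A (t.get n).T (t.get n).h := by
  induction t with
  | nil => intro n; exact valid_b0
  | node l c r ihl ihr =>
    intro n
    show Valid (cond (Nat.beq n 0) c (cond (Nat.beq (Nat.mod n 2) 1) (l.get (Nat.div n 2))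
      (r.get (Nat.pred (Nat.div n 2))))).A (cond (Nat.beq n 0) c (cond (Nat.beq (Nat.mod n 2) 1)
      (l.get (Nat.div n 2)) (r.get (Nat.pred (Nat.div n 2))))).T (cond (Nat.beq n 0) c
      (cond (Nat.beq (Nat.mod n 2) 1) (l.get (Nat.div n 2)) (r.get (Nat.pred (Nat.div n 2))))).h
    cases Nat.beq n 0
    · cases Nat.beq (Nat.mod n 2) 1
      · exact ihr ht.2.2 _
      · exact ihl ht.1 _
    · exact ht.2.1

lemma Tr.set_ok (t : Tr) (ht : t.Ok) (d : Cd) (hd : Valid d.A d.T d.h) : ∀ n, (t.set d n).Ok := by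
  induction t with
  | nil => intro n; exact ⟨trivial, hd, trivial⟩
  | node l c r ihl ihr =>
    intro n
    show (cond (Nat.beq n 0) (Tr.node l d r) (cond (Nat.beq (Nat.mod n 2) 1)
      (Tr.node (l.set d (Nat.div n 2)) c r) (Tr.node l c (r.set d (Nat.pred (Nat.div n 2)))))).Ok
    cases Nat.beq n 0
    · cases Nat.beq (Nat.mod n 2) 1
      · exact ⟨ht.1, ht.2.1, ihr ht.2.2 _⟩
      · exact ⟨ihl ht.1 _, ht.2.1, ht.2.2⟩
    · exact ⟨ht.1, hd, ht.2.2⟩

/-- evaluate `n` before passing it on -/
noncomputable def force {β : Type} (n : ℕ) (k : ℕ → β) : β :=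
  Nat.rec (motive := fun _ => β) (k 0) (fun m _ => k (Nat.succ m)) n

lemma force_eq {β : Type} (n : ℕ) (k : ℕ → β) : force n k = k n := by
  cases n <;> rfl

/-- close a family of cards by the move `x` -/
noncomputable def closeCd (x a u w h : ℕ) : Cd :=
  force (Nat.xor (Nat.lor a w) (Nat.land (Nat.lor a w) (Nat.shiftLeft 1 x))) (fun A =>
    force (Nat.lor u (Nat.shiftLeft 1 x)) (fun T => force (Nat.succ h) (fun h' => ⟨A, T, h'⟩)))

lemma closeCd_ok {a u w h : ℕ} (hi : Inv a u w h) (x : ℕ) :
    Valid (closeCd x a u w h).A (closeCd x a u w h).T (closeCd x a u w h).h := by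
  simp only [closeCd, force_eq]
  exact hi.close x

/-- join the remaining children encoded in `r`, then close -/
noncomputable def loop (t : Tr) (x : ℕ) (fuel : ℕ) : ℕ → ℕ → ℕ → ℕ → ℕ → Cd :=
  Nat.rec (motive := fun _ => ℕ → ℕ → ℕ → ℕ → ℕ → Cd) (fun _ a u w h => closeCd x a u w h)
    (fun _ ih r a u w h => cond (Nat.beq r 0) (closeCd x a u w h)
      (Cd.rec (motive := fun _ => Cd) (fun A T h' =>
        force (Nat.mod r 1024) (fun k =>
          force (Nat.shiftLeft T k) (fun T' =>
            force (Nat.shiftRight r 26) (fun r' =>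
              ih r' (Nat.lor a (Nat.shiftLeft A k)) (Nat.lor u T') (Nat.land w T') (mx h h')))))
        (t.get (Nat.mod (Nat.shiftRight r 10) 65536)))) fuel

lemma loop_ok (t : Tr) (ht : t.Ok) (x fuel : ℕ) : ∀ r a u w h, Inv a u w h →
    Valid (loop t x fuel r a u w h).A (loop t x fuel r a u w h).T (loop t x fuel r a u w h).h := by
  induction fuel with
  | zero => intro r a u w h hi; exact closeCd_ok hi x
  | succ n ih =>
    intro r a u w h hi
    have e : loop t x (n + 1) r a u w h = cond (Nat.beq r 0) (closeCd x a u w h)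
        (loop t x n (Nat.shiftRight r 26)
          (Nat.lor a (Nat.shiftLeft (t.get (Nat.mod (Nat.shiftRight r 10) 65536)).A (Nat.mod r 1024)))
          (Nat.lor u (Nat.shiftLeft (t.get (Nat.mod (Nat.shiftRight r 10) 65536)).T (Nat.mod r 1024)))
          (Nat.land w (Nat.shiftLeft (t.get (Nat.mod (Nat.shiftRight r 10) 65536)).T (Nat.mod r 1024)))
          (mx h (t.get (Nat.mod (Nat.shiftRight r 10) 65536)).h)) := by
      simp only [loop, force_eq]
    rw [e]
    cases Nat.beq r 0
    · exact ih _ _ _ _ _ (hi.join ((t.get_ok ht _).shift _))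
    · exact closeCd_ok hi x

/-- the card described by the code `c` -/
noncomputable def mkCd (t : Tr) (c : ℕ) : Cd :=
  Cd.rec (motive := fun _ => Cd) (fun A T h =>
    force (Nat.mod (Nat.shiftRight c 10) 1024) (fun k =>
      force (Nat.shiftLeft T k) (fun T' =>
        loop t (Nat.mod c 1024) 100 (Nat.shiftRight c 36) (Nat.shiftLeft A k) T' T' h)))
    (t.get (Nat.mod (Nat.shiftRight c 20) 65536))

lemma mkCd_ok (t : Tr) (ht : t.Ok) (c : ℕ) : Valid (mkCd t c).A (mkCd t c).T (mkCd t c).h := by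
  simp only [mkCd, force_eq]
  exact loop_ok t ht _ _ _ _ _ _ _ ((t.get_ok ht _).shift _).start

/-- state of the interpreter -/
structure St : Type where
  /-- table -/
  t : Tr
  /-- next free index -/
  n : ℕ

/-- run a list of codes -/
noncomputable def runL (l : List ℕ) : Tr → ℕ → St :=
  List.rec (motive := fun _ => Tr → ℕ → St) (fun t n => ⟨t, n⟩)
    (fun c _ ih t n => Cd.rec (motive := fun _ => St) (fun A T h =>
      force (Nat.succ n) (fun n' => ih (t.set ⟨A, T, h⟩ n) n')) (mkCd t c)) l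

lemma runL_ok (l : List ℕ) : ∀ t n, t.Ok → (runL l t n).t.Ok := by
  induction l with
  | nil => intro t n ht; exact ht
  | cons c l ih =>
    intro t n ht
    have e : runL (c :: l) t n = runL l (t.set (mkCd t c) n) (Nat.succ n) := by
      simp only [runL, force_eq]
    rw [e]
    exact ih _ _ (t.set_ok ht _ (mkCd_ok t ht c) n)

/-- run a list of lists of codes -/
noncomputable def runLL (l : List (List ℕ)) : Tr → ℕ → St :=
  List.rec (motive := fun _ => Tr → ℕ → St) (fun t n => ⟨t, n⟩)
    (fun c _ ih t n => St.rec (motive := fun _ => St) (fun t' n' => ih t' n') (runL c t n)) l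

lemma runLL_ok (l : List (List ℕ)) : ∀ t n, t.Ok → (runLL l t n).t.Ok := by
  induction l with
  | nil => intro t n ht; exact ht
  | cons c l ih =>
    intro t n ht
    exact ih _ _ (runL_ok c t n ht)

/-- load a list of cards -/
noncomputable def load (l : List Cd) : Tr → ℕ → St :=
  List.rec (motive := fun _ => Tr → ℕ → St) (fun t n => ⟨t, n⟩)
    (fun c _ ih t n => force (Nat.succ n) (fun n' => ih (t.set c n) n')) l

lemma load_ok (l : List Cd) (hl : ∀ c ∈ l, Valid c.A c.T c.h) :
    ∀ t n, t.Ok → (load l t n).t.Ok := by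
  induction l with
  | nil => intro t n ht; exact ht
  | cons c l ih =>
    intro t n ht
    have e : load (c :: l) t n = load l (t.set c n) (Nat.succ n) := by
      simp only [load, force_eq]
    rw [e]
    exact ih (fun d hd => hl d (List.mem_cons_of_mem _ hd)) _ _
      (t.set_ok ht _ (hl c List.mem_cons_self) n)

/-- check that the listed cards occur at the listed places of the table -/
noncomputable def outOk (t : Tr) (l : List (ℕ × Cd)) : Bool :=
  l.all (fun p => Nat.beq (t.get p.1).A p.2.A && Nat.beq (t.get p.1).T p.2.T &&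
    Nat.beq (t.get p.1).h p.2.h)

/-- the checker -/
noncomputable def check (inp : List Cd) (prog : List (List ℕ)) (out : List (ℕ × Cd)) : Bool :=
  St.rec (motive := fun _ => Bool) (fun t n =>
    St.rec (motive := fun _ => Bool) (fun t' _ => outOk t' out) (runLL prog t n))
    (load inp Tr.nil 0)

theorem check_sound (inp : List Cd) (hinp : ∀ c ∈ inp, Valid c.A c.T c.h) (prog : List (List ℕ))
    (out : List (ℕ × Cd)) (h : check inp prog out = true) :
    ∀ c ∈ out.map Prod.snd, Valid c.A c.T c.h := by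
  intro c hc
  obtain ⟨p, hp, rfl⟩ := List.mem_map.mp hc
  have h1 : outOk (runLL prog (load inp Tr.nil 0).t (load inp Tr.nil 0).n).t out = true := h
  have h2 := runLL_ok prog _ (load inp Tr.nil 0).n (load_ok inp hinp Tr.nil 0 trivial)
  have h3 := List.all_eq_true.mp h1 p hp
  simp only [Bool.and_eq_true] at h3
  have h4 := Tr.get_ok _ h2 p.1
  rwa [Nat.eq_of_beq_eq_true h3.1.1, Nat.eq_of_beq_eq_true h3.1.2,
    Nat.eq_of_beq_eq_true h3.2] at h4

/-- the eight orientations of Snaky -/
def bases : List Cd :=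
  [⟨103079215119, 103079215119, 0⟩,
   ⟨170141183579311475521530554184204550145, 170141183579311475521530554184204550145, 0⟩,
   ⟨128849018883, 128849018883, 0⟩,
   ⟨170141183500083312998042844555953307649, 170141183500083312998042844555953307649, 0⟩,
   ⟨6442450959, 6442450959, 0⟩,
   ⟨8053063683, 8053063683, 0⟩,
   ⟨680564734079561414487988971722172792833, 680564734079561414487988971722172792833, 0⟩,
   ⟨680564734000333251992171378210928328705, 680564734000333251992171378210928328705, 0⟩]

lemma bases_ok : ∀ c ∈ bases, Valid c.A c.T c.h := by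
  simp only [bases, List.forall_mem_cons, List.not_mem_nil, false_imp_iff, implies_true, and_true]
  refine ⟨?_, ?_, ?_, ?_, ?_, ?_, ?_, ?_⟩
  · refine valid_base _ 0 (1) (1) false (by simp) (by simp) ?_
    simp only [snaky, List.forall_mem_cons, List.not_mem_nil, false_imp_iff, implies_true, and_true]
    exact ⟨⟨0, by decide, by decide⟩, ⟨1, by decide, by decide⟩, ⟨2, by decide, by decide⟩, ⟨3, by decide, by decide⟩, ⟨35, by decide, by decide⟩, ⟨36, by decide, by decide⟩⟩
  · refine valid_base _ 0 (-1) (1) true (by simp) (by simp) ?_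
    simp only [snaky, List.forall_mem_cons, List.not_mem_nil, false_imp_iff, implies_true, and_true]
    exact ⟨⟨0, by decide, by decide⟩, ⟨32, by decide, by decide⟩, ⟨64, by decide, by decide⟩, ⟨96, by decide, by decide⟩, ⟨95, by decide, by decide⟩, ⟨127, by decide, by decide⟩⟩
  · refine valid_base _ 36 (-1) (-1) false (by simp) (by simp) ?_
    simp only [snaky, List.forall_mem_cons, List.not_mem_nil, false_imp_iff, implies_true, and_true]
    exact ⟨⟨36, by decide, by decide⟩, ⟨35, by decide, by decide⟩, ⟨34, by decide, by decide⟩, ⟨33, by decide, by decide⟩, ⟨1, by decide, by decide⟩, ⟨0, by decide, by decide⟩⟩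
  · refine valid_base _ 127 (1) (-1) true (by simp) (by simp) ?_
    simp only [snaky, List.forall_mem_cons, List.not_mem_nil, false_imp_iff, implies_true, and_true]
    exact ⟨⟨127, by decide, by decide⟩, ⟨95, by decide, by decide⟩, ⟨63, by decide, by decide⟩, ⟨31, by decide, by decide⟩, ⟨32, by decide, by decide⟩, ⟨0, by decide, by decide⟩⟩
  · refine valid_base _ 3 (-1) (1) false (by simp) (by simp) ?_
    simp only [snaky, List.forall_mem_cons, List.not_mem_nil, false_imp_iff, implies_true, and_true]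
    exact ⟨⟨3, by decide, by decide⟩, ⟨2, by decide, by decide⟩, ⟨1, by decide, by decide⟩, ⟨0, by decide, by decide⟩, ⟨32, by decide, by decide⟩, ⟨31, by decide, by decide⟩⟩
  · refine valid_base _ 29 (1) (-1) false (by simp) (by simp) ?_
    simp only [snaky, List.forall_mem_cons, List.not_mem_nil, false_imp_iff, implies_true, and_true]
    exact ⟨⟨29, by decide, by decide⟩, ⟨30, by decide, by decide⟩, ⟨31, by decide, by decide⟩, ⟨32, by decide, by decide⟩, ⟨0, by decide, by decide⟩, ⟨1, by decide, by decide⟩⟩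
  · refine valid_base _ 0 (1) (1) true (by simp) (by simp) ?_
    simp only [snaky, List.forall_mem_cons, List.not_mem_nil, false_imp_iff, implies_true, and_true]
    exact ⟨⟨0, by decide, by decide⟩, ⟨32, by decide, by decide⟩, ⟨64, by decide, by decide⟩, ⟨96, by decide, by decide⟩, ⟨97, by decide, by decide⟩, ⟨129, by decide, by decide⟩⟩
  · refine valid_base _ 129 (-1) (-1) true (by simp) (by simp) ?_
    simp only [snaky, List.forall_mem_cons, List.not_mem_nil, false_imp_iff, implies_true, and_true]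
    exact ⟨⟨129, by decide, by decide⟩, ⟨97, by decide, by decide⟩, ⟨65, by decide, by decide⟩, ⟨33, by decide, by decide⟩, ⟨32, by decide, by decide⟩, ⟨0, by decide, by decide⟩⟩

end Vale.Agent.P062
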