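import Mathlib

/-!
The weak achievement game for the hexomino Snaky on the initially empty board `ℤ²`.
-/

namespace Vale.Agent.P062

/-- A cell of the square grid. -/
abbrev Cell : Type := ℤ × ℤ

/-- The hexomino Snaky. -/
def snaky : List Cell := [(0, 0), (1, 0), (2, 0), (3, 0), (3, 1), (4, 1)]

/-- The signed permutation matrix with signs `a`, `b` (diagonal if `sw` is false, antidiagonal if
`sw` is true) applied to a cell. -/
def signedPerm (a b : ℤ) (sw : Bool) (p : Cell) : Cell :=
  if sw then (a * p.2, b * p.1) else (a * p.1, b * p.2)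

/-- The set `M` contains an allowed copy `t + R(S)` of Snaky. -/
def OwnsCopy (M : Set Cell) : Prop :=
  ∃ (t : Cell) (a b : ℤ) (sw : Bool), (a = 1 ∨ a = -1) ∧ (b = 1 ∨ b = -1) ∧
    ∀ p ∈ snaky, t + signedPerm a b sw p ∈ M

/-- Maker's move number `n` (counted from `0`) when Maker follows the strategy `σ`, a function of
the list of Breaker's previous moves, and Breaker's moves are `β 0, β 1, ...`. -/
def makerMove (σ : List Cell → Cell) (β : ℕ → Cell) (n : ℕ) : Cell :=
  σ ((List.range n).map β)

/-- Maker's move number `n` claims a cell that nobody has claimed before. -/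
def MakerLegal (σ : List Cell → Cell) (β : ℕ → Cell) (n : ℕ) : Prop :=
  ∀ i < n, makerMove σ β n ≠ makerMove σ β i ∧ makerMove σ β n ≠ β i

/-- Breaker's move number `n`, made right after Maker's move number `n`, claims a cell that nobody
has claimed before. -/
def BreakerLegal (σ : List Cell → Cell) (β : ℕ → Cell) (n : ℕ) : Prop :=
  (∀ i ≤ n, β n ≠ makerMove σ β i) ∧ ∀ i < n, β n ≠ β i

/-- The cells claimed by Maker's moves number `0, ..., n`. -/
def makerCells (σ : List Cell → Cell) (β : ℕ → Cell) (n : ℕ) : Set Cell :=
  {c | ∃ i ≤ n, makerMove σ β i = c}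

end Vale.Agent.P062
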