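import Vale.Agent.P062.Defs

/-!
Bounded winning positions and extraction of a strategy.
-/

namespace Vale.Agent.P062

open Classical

lemma OwnsCopy.mono {M M' : Set Cell} (h : OwnsCopy M) (hs : M ⊆ M') : OwnsCopy M' := by
  obtain ⟨t, a, b, sw, ha, hb, h⟩ := h
  exact ⟨t, a, b, sw, ha, hb, fun p hp => hs (h p hp)⟩

/-- Maker, to move, owns a copy after at most `h` further moves. -/
def Wn : ℕ → Finset Cell → Finset Cell → Prop
  | 0, M, _ => OwnsCopy M
  | h + 1, M, B => ∃ x, x ∉ M ∧ x ∉ B ∧ ∀ y, y ∉ insert x M → y ∉ B → Wn h (insert x M) (insert y B)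

lemma exists_fresh (M B : Finset Cell) : ∃ x, x ∉ M ∧ x ∉ B := by
  obtain ⟨x, hx⟩ := Infinite.exists_notMem_finset (M ∪ B)
  exact ⟨x, fun h => hx (Finset.mem_union_left _ h), fun h => hx (Finset.mem_union_right _ h)⟩

lemma Wn_of_owns (h : ℕ) : ∀ (M B : Finset Cell), OwnsCopy M → Wn h M B := by
  induction h with
  | zero => intro M B hM; exact hM
  | succ h ih =>
    intro M B hM
    obtain ⟨x, hx, hx'⟩ := exists_fresh M B
    exact ⟨x, hx, hx', fun y _ _ => ih _ _ (hM.mono (by intro c hc; simp_all))⟩

lemma Wn_succ (h : ℕ) : ∀ (M B : Finset Cell), Wn h M B → Wn (h + 1) M B := by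
  induction h with
  | zero => intro M B hM; exact Wn_of_owns _ _ _ hM
  | succ h ih =>
    rintro M B ⟨x, hx, hx', hy⟩
    exact ⟨x, hx, hx', fun y h1 h2 => ih _ _ (hy y h1 h2)⟩

lemma Wn_mono {h h' : ℕ} (hh : h ≤ h') {M B : Finset Cell} (hw : Wn h M B) : Wn h' M B := by
  induction hh with
  | refl => exact hw
  | step _ ih => exact Wn_succ _ _ _ ih

/-- a good move, if there is one -/
noncomputable def pick (h : ℕ) (M B : Finset Cell) : Cell :=
  if hw : Wn (h + 1) M B then Classical.choose hw else Classical.choose (exists_fresh M B)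

lemma pick_fresh (h : ℕ) (M B : Finset Cell) : pick h M B ∉ M ∧ pick h M B ∉ B := by
  unfold pick
  split_ifs with hw
  · exact ⟨(Classical.choose_spec hw).1, (Classical.choose_spec hw).2.1⟩
  · exact Classical.choose_spec (exists_fresh M B)

lemma pick_spec {h : ℕ} {M B : Finset Cell} (hw : Wn (h + 1) M B) :
    ∀ y, y ∉ insert (pick h M B) M → y ∉ B → Wn h (insert (pick h M B) M) (insert y B) := by
  unfold pick
  rw [dif_pos hw]
  exact (Classical.choose_spec hw).2.2

/-- Maker's cells before her next move, from the reversed list of Breaker's moves -/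
noncomputable def st (H : ℕ) : List Cell → Finset Cell
  | [] => ∅
  | y :: l => insert (pick (H - l.length) (st H l) (y :: l).tail.toFinset) (st H l)

/-- the strategy -/
noncomputable def strat (H : ℕ) (l : List Cell) : Cell :=
  pick (H - l.length) (st H l.reverse) l.reverse.toFinset

lemma rev_succ (β : ℕ → Cell) (n : ℕ) :
    ((List.range (n + 1)).map β).reverse = β n :: ((List.range n).map β).reverse := by
  simp [List.range_succ]

lemma st_succ (H : ℕ) (β : ℕ → Cell) (n : ℕ) :
    st H ((List.range (n + 1)).map β).reverse =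
      insert (makerMove (strat H) β n) (st H ((List.range n).map β).reverse) := by
  rw [rev_succ]
  simp [st, makerMove, strat]

lemma mem_st (H : ℕ) (β : ℕ → Cell) (n : ℕ) (c : Cell) :
    c ∈ st H ((List.range n).map β).reverse ↔ ∃ i < n, makerMove (strat H) β i = c := by
  induction n with
  | zero => simp [st]
  | succ n ih =>
    rw [st_succ, Finset.mem_insert, ih]
    constructor
    · rintro (h | ⟨i, hi, h⟩)
      · exact ⟨n, Nat.lt_succ_self n, h.symm⟩
      · exact ⟨i, Nat.lt_succ_of_lt hi, h⟩
    · rintro ⟨i, hi, h⟩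
      rcases Nat.lt_succ_iff_lt_or_eq.mp hi with h' | rfl
      · exact Or.inr ⟨i, h', h⟩
      · exact Or.inl h.symm

lemma mem_hist (β : ℕ → Cell) (n : ℕ) (c : Cell) :
    c ∈ ((List.range n).map β).reverse.toFinset ↔ ∃ i < n, β i = c := by
  simp

lemma makerMove_eq (H : ℕ) (β : ℕ → Cell) (n : ℕ) :
    makerMove (strat H) β n = pick (H - n) (st H ((List.range n).map β).reverse)
      ((List.range n).map β).reverse.toFinset := by
  simp [makerMove, strat]

theorem strategy_of_Wn (H : ℕ) (hw : Wn (H + 1) ∅ ∅) :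
    ∃ σ : List Cell → Cell, ∀ (β : ℕ → Cell) (n : ℕ), (∀ k < n, BreakerLegal σ β k) →
      MakerLegal σ β n ∧ (H ≤ n → OwnsCopy (makerCells σ β n)) := by
  refine ⟨strat H, fun β n hβ => ⟨?_, fun hn => ?_⟩⟩
  · intro i hi
    have := pick_fresh (H - n) (st H ((List.range n).map β).reverse)
      ((List.range n).map β).reverse.toFinset
    rw [← makerMove_eq, mem_st, mem_hist] at this
    exact ⟨fun h => this.1 ⟨i, hi, h.symm⟩, fun h => this.2 ⟨i, hi, h.symm⟩⟩
  · have inv : ∀ m, m ≤ H → Wn (H - m + 1) (st H ((List.range m).map β).reverse)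
        ((List.range m).map β).reverse.toFinset := by
      intro m
      induction m with
      | zero => intro _; simpa [st] using hw
      | succ m ih =>
        intro hm
        have h1 := pick_spec (ih (by omega)) (β m)
        rw [← makerMove_eq, ← st_succ, mem_st, mem_hist] at h1
        have h2 := hβ m (by omega)
        have h3 := h1 (fun ⟨i, hi, h⟩ => h2.1 i (by omega) h.symm)
          (fun ⟨i, hi, h⟩ => h2.2 i hi h.symm)
        rw [rev_succ, List.toFinset_cons, ← rev_succ]
        have e : H - m = H - (m + 1) + 1 := by omega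
        rwa [e] at h3
    have h1 := inv H le_rfl
    obtain ⟨y, hy1, hy2⟩ := exists_fresh (insert (pick (H - H) (st H ((List.range H).map β).reverse)
      ((List.range H).map β).reverse.toFinset) (st H ((List.range H).map β).reverse))
      ((List.range H).map β).reverse.toFinset
    have h2 := pick_spec h1 y hy1 hy2
    rw [← makerMove_eq, ← st_succ, Nat.sub_self] at h2
    refine OwnsCopy.mono h2 (fun c hc => ?_)
    obtain ⟨i, hi, h⟩ := (mem_st H β (H + 1) c).mp hc
    exact ⟨i, by omega, h⟩

end Vale.Agent.P062
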