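import Vale.Agent.P062.Cards

/-!
Symmetries of the game and the use of cards whose core is a single cell.
-/

namespace Vale.Agent.P062

open Classical

lemma Wn_image (φ : Cell → Cell) (hφ : Function.Bijective φ)
    (ho : ∀ M : Finset Cell, OwnsCopy M → OwnsCopy (M.image φ : Finset Cell)) (h : ℕ) :
    ∀ M B : Finset Cell, Wn h M B → Wn h (M.image φ) (B.image φ) := by
  have mem : ∀ (M : Finset Cell) (x : Cell), φ x ∈ M.image φ ↔ x ∈ M := fun M x =>
    hφ.1.mem_finset_image
  induction h with
  | zero => intro M B hM; exact ho M hM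
  | succ h ih =>
    rintro M B ⟨x, hx, hx', hy⟩
    refine ⟨φ x, by rwa [mem], by rwa [mem], fun y h1 h2 => ?_⟩
    obtain ⟨y, rfl⟩ := hφ.2 y
    rw [← Finset.image_insert] at h1 ⊢
    rw [← Finset.image_insert]
    rw [mem] at h1 h2
    exact ih _ _ (hy y h1 h2)

lemma sp_inv {a b : ℤ} (sw : Bool) (ha : a = 1 ∨ a = -1) (hb : b = 1 ∨ b = -1) (p : Cell) :
    signedPerm (cond sw b a) (cond sw a b) sw (signedPerm a b sw p) = p := by
  rcases ha with rfl | rfl <;> rcases hb with rfl | rfl <;> cases sw <;> simp [signedPerm]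

lemma sp_add (a b : ℤ) (sw : Bool) (p q : Cell) :
    signedPerm a b sw (p + q) = signedPerm a b sw p + signedPerm a b sw q := by
  cases sw <;> simp [signedPerm, mul_add]

lemma sp_comp (a b : ℤ) (sw : Bool) (a' b' : ℤ) (sw' : Bool) (p : Cell) :
    signedPerm a b sw (signedPerm a' b' sw' p) =
      signedPerm (a * cond sw b' a') (b * cond sw a' b') (xor sw sw') p := by
  cases sw <;> cases sw' <;> simp [signedPerm, mul_assoc]

lemma sign_cond {a b : ℤ} (sw : Bool) (ha : a = 1 ∨ a = -1) (hb : b = 1 ∨ b = -1) :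
    cond sw a b = 1 ∨ cond sw a b = -1 := by
  cases sw
  · exact hb
  · exact ha

lemma sign_mul' {a b : ℤ} (ha : a = 1 ∨ a = -1) (hb : b = 1 ∨ b = -1) :
    a * b = 1 ∨ a * b = -1 := by
  rcases ha with rfl | rfl <;> rcases hb with rfl | rfl <;> simp

/-- the first move -/
def org : Cell := (16, 0)

lemma Wn_sym {a b : ℤ} (sw : Bool) (ha : a = 1 ∨ a = -1) (hb : b = 1 ∨ b = -1) (h : ℕ) (d : Cell)
    (hw : Wn h {org} {org + d}) : Wn h {org} {org + signedPerm a b sw d} := by
  have key := Wn_image (fun p => org + signedPerm a b sw (p - org)) ?_ ?_ h _ _ hw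
  · have e : signedPerm a b sw 0 = 0 := by cases sw <;> simp [signedPerm]
    simpa [e] using key
  · refine Function.bijective_iff_has_inverse.mpr
      ⟨fun p => org + signedPerm (cond sw b a) (cond sw a b) sw (p - org), fun p => ?_, fun p => ?_⟩
    · simp [sp_inv sw ha hb]
    · have := sp_inv sw (sign_cond sw hb ha) (sign_cond sw ha hb) (p - org)
      have e1 : cond sw (cond sw a b) (cond sw b a) = a := by cases sw <;> rfl
      have e2 : cond sw (cond sw b a) (cond sw a b) = b := by cases sw <;> rfl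
      rw [e1, e2] at this
      simp [this]
  · rintro M ⟨t, a', b', sw', ha', hb', hM⟩
    refine ⟨org + signedPerm a b sw (t - org), _, _, xor sw sw',
      sign_mul' ha (sign_cond sw hb' ha'), sign_mul' hb (sign_cond sw ha' hb'), fun p hp => ?_⟩
    rw [← sp_comp, add_assoc, ← sp_add]
    simp only [Finset.coe_image]
    exact ⟨_, hM p hp, by simp only [sub_add_eq_add_sub]⟩

lemma Wn_sym' {a b : ℤ} (sw : Bool) (ha : a = 1 ∨ a = -1) (hb : b = 1 ∨ b = -1) (h : ℕ) (d : Cell)
    (hw : Wn h {org} {org + signedPerm a b sw d}) : Wn h {org} {org + d} := by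
  have := Wn_sym sw (sign_cond sw hb ha) (sign_cond sw ha hb) h _ hw
  rwa [sp_inv sw ha hb] at this

/-- a card with core `2 ^ k`: the exponent, the region -/
structure Top : Type where
  /-- position of the core -/
  k : ℕ
  /-- region -/
  T : ℕ

/-- validity of a top card -/
def Top.Ok (c : Top) : Prop := Valid (2 ^ c.k) c.T 34 ∧ NoWrap c.T (16 - c.k)

/-- the cell `p` is outside the region -/
def Top.out (c : Top) (p : Cell) : Bool := !(c.T.testBit (p.1 + 32 * p.2 - 16 + c.k).toNat)

lemma Top.win (c : Top) (hc : c.Ok) (p : Cell) (hp : p ≠ org)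
    (h : ∀ i, c.T.testBit i = true → dec (i + (16 - c.k)) ≠ p) : Wn 34 {org} {p} := by
  refine hc.1 (16 - c.k) hc.2 _ _ (by simpa using hp.symm) (fun i hi => ?_) (fun i hi => ?_)
  · have : c.k = i := by simpa [Nat.testBit_two_pow] using hi
    subst this
    simp [dec, org]
  · simpa using h i hi

lemma Top.win' (c : Top) (hc : c.Ok) (p : Cell) (hp : p ≠ org) (h : c.out p = true) :
    Wn 34 {org} {p} := by
  refine c.win hc p hp (fun i hi e => ?_)
  subst e
  have : ((dec (i + (16 - c.k))).1 + 32 * (dec (i + (16 - c.k))).2 - 16 + c.k).toNat = i := by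
    simp only [dec]
    omega
  simp [Top.out, this, hi] at h

lemma noWrap_of (T N : ℕ) (t : ℤ) (h1 : T < 2 ^ N)
    (h2 : (List.range N).all (fun i => !(T.testBit i) || decide (((i : ℤ) + t) % 32 ≠ 0)) = true) :
    NoWrap T t := by
  intro i hi
  have hiN : i < N := by
    by_contra hc
    rw [Nat.testBit_lt_two_pow (lt_of_lt_of_le h1 (Nat.pow_le_pow_right (by norm_num)
      (not_lt.mp hc)))] at hi
    exact absurd hi (by simp)
  have := List.all_eq_true.mp h2 i (List.mem_range.mpr hiN)
  simpa [hi] using this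

/-- the eight symmetries -/
def syms : List (ℤ × ℤ × Bool) :=
  [(1, 1, false), (1, -1, false), (-1, 1, false), (-1, -1, false),
   (1, 1, true), (1, -1, true), (-1, 1, true), (-1, -1, true)]

/-- the reply `p` is refuted by some symmetric image of some card -/
def covered (l : List Top) (p : Cell) : Bool :=
  decide (p = org) || l.any (fun c => syms.any (fun s =>
    c.out (org + signedPerm s.1 s.2.1 s.2.2 (p - org))))

lemma win_of_covered (l : List Top) (hl : ∀ c ∈ l, c.Ok) (p : Cell) (hp : p ≠ org)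
    (h : covered l p = true) : Wn 34 {org} {p} := by
  simp only [covered, hp, decide_false, Bool.false_or, List.any_eq_true] at h
  obtain ⟨c, hc, s, hs, h⟩ := h
  have hs' : (s.1 = 1 ∨ s.1 = -1) ∧ (s.2.1 = 1 ∨ s.2.1 = -1) := by
    simp only [syms, List.mem_cons, List.not_mem_nil, or_false] at hs
    rcases hs with rfl | rfl | rfl | rfl | rfl | rfl | rfl | rfl <;> simp
  have h1 := c.win' (hl c hc) _ (fun e => hp ?_) h
  · simpa using Wn_sym' s.2.2 hs'.1 hs'.2 34 _ h1
  · have e1 : signedPerm s.1 s.2.1 s.2.2 (p - org) = 0 := by simpa using e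
    have e2 := sp_inv s.2.2 hs'.1 hs'.2 (p - org)
    rw [e1] at e2
    have e3 : signedPerm (cond s.2.2 s.2.1 s.1) (cond s.2.2 s.1 s.2.1) s.2.2 0 = 0 := by
      cases s.2.2 <;> simp [signedPerm]
    rw [e3] at e2
    exact sub_eq_zero.mp e2.symm

theorem win_of_cover (l : List Top) (hl : ∀ c ∈ l, c.Ok) (c : Top) (hc : c.Ok) (N : ℕ)
    (h1 : c.T < 2 ^ N)
    (h2 : (List.range N).all (fun i => !(c.T.testBit i) || covered l (dec (i + (16 - c.k)))) = true) :
    Wn 35 ∅ ∅ := by
  refine ⟨org, by simp, by simp, fun y hy _ => ?_⟩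
  have hy' : y ≠ org := by simpa using hy
  show Wn 34 {org} {y}
  by_cases h : ∀ i, c.T.testBit i = true → dec (i + (16 - c.k)) ≠ y
  · exact c.win hc y hy' h
  · push Not at h
    obtain ⟨i, hi, e⟩ := h
    have hiN : i < N := by
      by_contra hc
      rw [Nat.testBit_lt_two_pow (lt_of_lt_of_le h1 (Nat.pow_le_pow_right (by norm_num)
        (not_lt.mp hc)))] at hi
      exact absurd hi (by simp)
    have := List.all_eq_true.mp h2 i (List.mem_range.mpr hiN)
    rw [hi, e] at this
    exact win_of_covered l hl y hy' (by simpa using this)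

lemma Valid.mono {A T h h' : ℕ} (hv : Valid A T h) (hh : h ≤ h') : Valid A T h' :=
  fun t hn M B hd hA hT => Wn_mono hh (hv t hn M B hd hA hT)

end Vale.Agent.P062
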